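import Vale.Agent.P217.ChaiProof

/-!
# P217, question Q1: Chai's conjecture on invariant ideals of the Lubin-Tate ring, for all `p`, `n`
-/

namespace Vale.Agent.Results.P217.ChaiConjecture

open Vale.Agent.P217

/-- For every prime `p` and every `n ≥ 1`: there is exactly one formal group law `F` over
`E_0 = W(𝔽_(p^n))[[u_1, …, u_(n-1)]]` with Hazewinkel parameters `u_1, …, u_(n-1), 1, 0, …`
(the universal deformation of the Honda formal group law `Γ_n`); its special fibre has
`[p](x) = x^(p^n)`; every `(γ, σ)` in the extended Morava stabilizer group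
`G_n = Aut(Γ_n) ⋊ Gal(𝔽_(p^n)/𝔽_p)` acts on `E_0` by exactly one ring automorphism; the
`G_n`-invariant prime ideals of `E_0` are exactly `I_0, …, I_n`; the `G_n`-invariant radical
ideals are exactly `I_0, …, I_n, E_0`; and a radical ideal is `G_n`-invariant as soon as it is
invariant under `Aut(Γ_n)`. -/
theorem result (p n : ℕ) [Fact p.Prime] (hn : 1 ≤ n) :
    (∃! F : FormalGroup (LTRing p n), IsUniversalDeformation F) ∧
    ∀ F : FormalGroup (LTRing p n), IsUniversalDeformation F →
      (∀ x : (specialFibre F).Point Unit, (p • x).val = x.val ^ (p ^ n)) ∧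
      (∀ (γ : PowerSeries (GaloisField p n)) (σ : GalAut p n),
        IsAutOfFibre F γ → ∃! φ : LTAut p n, ActsBy F γ σ φ) ∧
      (∀ J : Ideal (LTRing p n),
        (J.IsPrime ∧ IsInvariantG F J) ↔ ∃ h ≤ n, J = heightIdeal p n h) ∧
      (∀ J : Ideal (LTRing p n),
        (J.IsRadical ∧ IsInvariantG F J) ↔ (∃ h ≤ n, J = heightIdeal p n h) ∨ J = ⊤) ∧
      (∀ J : Ideal (LTRing p n), J.IsRadical → (IsInvariantG F J ↔ IsInvariantA F J)) :=
  chai_final p n hn

end Vale.Agent.Results.P217.ChaiConjecture
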